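import Mathlib

namespace Vale.Agent.Results.P166.DeterministicSandwich

open Matrix Filter Topology

/-- The real spin vector, with entries plus or minus one, of a configuration of signs. -/
def spin {N : ℕ} (σ : Fin N → ℤˣ) : Fin N → ℝ := fun i => ((σ i : ℤ) : ℝ)

/-- The pressure of the Ising model with coupling matrix J at inverse temperature β
(uniform spin prior, diagonal terms included, no external field). -/
noncomputable def pressure (N : ℕ) (J : Matrix (Fin N) (Fin N) ℝ) (β : ℝ) : ℝ :=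
  (1 / (N : ℝ)) *
    Real.log ((2 : ℝ)⁻¹ ^ N * ∑ σ : Fin N → ℤˣ, Real.exp (β / 2 * (spin σ ⬝ᵥ J *ᵥ spin σ)))

theorem spin_sq {N : ℕ} (σ : Fin N → ℤˣ) (i : Fin N) : spin σ i * spin σ i = 1 := by
  unfold spin
  rcases Int.units_eq_one_or (σ i) with h | h <;> rw [h] <;> norm_num

theorem card_config (N : ℕ) : (Fintype.card (Fin N → ℤˣ) : ℝ) = 2 ^ N := by
  simp

theorem sum_spin_mul_of_ne {N : ℕ} (i j : Fin N) (hij : i ≠ j) :
    ∑ σ : Fin N → ℤˣ, spin σ i * spin σ j = 0 := by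
  have h := Equiv.sum_comp (Equiv.mulRight (Pi.mulSingle i (-1 : ℤˣ)))
    (fun σ : Fin N → ℤˣ => spin σ i * spin σ j)
  have h2 : ∀ σ : Fin N → ℤˣ,
      spin (Equiv.mulRight (Pi.mulSingle i (-1 : ℤˣ)) σ) i *
        spin (Equiv.mulRight (Pi.mulSingle i (-1 : ℤˣ)) σ) j = -(spin σ i * spin σ j) := by
    intro σ
    unfold spin
    simp only [Equiv.coe_mulRight, Pi.mul_apply, Pi.mulSingle_eq_same,
      Pi.mulSingle_eq_of_ne (Ne.symm hij), mul_one, Units.val_mul, Units.val_neg, Units.val_one]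
    push_cast
    ring
  simp only [h2, Finset.sum_neg_distrib] at h
  linarith

theorem sum_spin_mul_self {N : ℕ} (i : Fin N) :
    ∑ σ : Fin N → ℤˣ, spin σ i * spin σ i = 2 ^ N := by
  simp only [spin_sq, Finset.sum_const, Finset.card_univ, nsmul_eq_mul, mul_one]
  exact card_config N

theorem quad_expand {N : ℕ} (J : Matrix (Fin N) (Fin N) ℝ) (s : Fin N → ℝ) :
    s ⬝ᵥ J *ᵥ s = ∑ i, ∑ j, J i j * (s i * s j) := by
  simp only [dotProduct, mulVec, Finset.mul_sum]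
  refine Finset.sum_congr rfl fun i _ => Finset.sum_congr rfl fun j _ => ?_
  ring

theorem sum_quad {N : ℕ} (J : Matrix (Fin N) (Fin N) ℝ) :
    ∑ σ : Fin N → ℤˣ, spin σ ⬝ᵥ J *ᵥ spin σ = 2 ^ N * J.trace := by
  simp only [quad_expand]
  rw [Finset.sum_comm]
  have h1 : ∀ i : Fin N, ∑ σ : Fin N → ℤˣ, ∑ j, J i j * (spin σ i * spin σ j)
      = 2 ^ N * J i i := by
    intro i
    rw [Finset.sum_comm]
    rw [Finset.sum_eq_single i]
    · rw [← Finset.mul_sum, sum_spin_mul_self]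
      ring
    · intro j _ hji
      rw [← Finset.mul_sum, sum_spin_mul_of_ne i j (Ne.symm hji), mul_zero]
    · intro h
      exact absurd (Finset.mem_univ i) h
  rw [Finset.sum_congr rfl fun i _ => h1 i, ← Finset.mul_sum]
  rfl

theorem trace_conj {N : ℕ} (U : Matrix (Fin N) (Fin N) ℝ) (lam : Fin N → ℝ)
    (hU : Uᵀ * U = 1) : (Uᵀ * Matrix.diagonal lam * U).trace = ∑ i, lam i := by
  have hU2 : U * Uᵀ = 1 := mul_eq_one_comm.1 hU
  rw [Matrix.trace_mul_comm, ← Matrix.mul_assoc, hU2, Matrix.one_mul, Matrix.trace_diagonal]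

theorem quad_conj {N : ℕ} (U : Matrix (Fin N) (Fin N) ℝ) (lam : Fin N → ℝ) (s : Fin N → ℝ) :
    s ⬝ᵥ (Uᵀ * Matrix.diagonal lam * U) *ᵥ s = ∑ k, lam k * ((U *ᵥ s) k * (U *ᵥ s) k) := by
  rw [← Matrix.mulVec_mulVec, ← Matrix.mulVec_mulVec, Matrix.dotProduct_mulVec,
    Matrix.vecMul_transpose]
  simp only [dotProduct, Matrix.mulVec_diagonal]
  refine Finset.sum_congr rfl fun k _ => ?_
  ring

theorem norm_conj {N : ℕ} (U : Matrix (Fin N) (Fin N) ℝ) (hU : Uᵀ * U = 1) (s : Fin N → ℝ) :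
    ∑ k, (U *ᵥ s) k * (U *ᵥ s) k = ∑ k, s k * s k := by
  have h : (U *ᵥ s) ⬝ᵥ (U *ᵥ s) = s ⬝ᵥ s := by
    rw [Matrix.dotProduct_mulVec, ← Matrix.mulVec_transpose, Matrix.mulVec_mulVec, hU,
      Matrix.one_mulVec]
  simpa only [dotProduct] using h

theorem quad_le {N : ℕ} (U : Matrix (Fin N) (Fin N) ℝ) (lam : Fin N → ℝ) (hU : Uᵀ * U = 1)
    (M : ℝ) (hM : ∀ i, lam i ≤ M) (σ : Fin N → ℤˣ) :
    spin σ ⬝ᵥ (Uᵀ * Matrix.diagonal lam * U) *ᵥ spin σ ≤ M * N := by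
  rw [quad_conj]
  have h1 : ∑ k, lam k * ((U *ᵥ spin σ) k * (U *ᵥ spin σ) k)
      ≤ ∑ k, M * ((U *ᵥ spin σ) k * (U *ᵥ spin σ) k) := by
    refine Finset.sum_le_sum fun k _ => ?_
    exact mul_le_mul_of_nonneg_right (hM k) (mul_self_nonneg _)
  have h2 : ∑ k, M * ((U *ᵥ spin σ) k * (U *ᵥ spin σ) k) = M * N := by
    rw [← Finset.mul_sum, norm_conj U hU]
    simp only [spin_sq, Finset.sum_const, Finset.card_univ, Fintype.card_fin, nsmul_eq_mul,
      mul_one]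
  linarith

/-- The partition sum is at least its Jensen lower bound. -/
theorem partition_lower {N : ℕ} (J : Matrix (Fin N) (Fin N) ℝ) (β : ℝ) :
    Real.exp (β / 2 * J.trace)
      ≤ (2 : ℝ)⁻¹ ^ N * ∑ σ : Fin N → ℤˣ, Real.exp (β / 2 * (spin σ ⬝ᵥ J *ᵥ spin σ)) := by
  set m : ℝ := β / 2 * J.trace with hm
  have h1 : ∀ σ : Fin N → ℤˣ,
      Real.exp m * (β / 2 * (spin σ ⬝ᵥ J *ᵥ spin σ) - m + 1)
        ≤ Real.exp (β / 2 * (spin σ ⬝ᵥ J *ᵥ spin σ)) := by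
    intro σ
    have e : Real.exp (β / 2 * (spin σ ⬝ᵥ J *ᵥ spin σ))
        = Real.exp m * Real.exp (β / 2 * (spin σ ⬝ᵥ J *ᵥ spin σ) - m) := by
      rw [← Real.exp_add]
      congr 1
      ring
    rw [e]
    exact mul_le_mul_of_nonneg_left (Real.add_one_le_exp _) (Real.exp_pos m).le
  have h2 : ∑ σ : Fin N → ℤˣ, Real.exp m * (β / 2 * (spin σ ⬝ᵥ J *ᵥ spin σ) - m + 1)
      = 2 ^ N * Real.exp m := by
    rw [← Finset.mul_sum]
    simp only [Finset.sum_add_distrib, Finset.sum_sub_distrib, ← Finset.mul_sum, sum_quad,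
      Finset.sum_const, Finset.card_univ, nsmul_eq_mul, card_config]
    rw [hm]
    ring
  have h3 : 2 ^ N * Real.exp m
      ≤ ∑ σ : Fin N → ℤˣ, Real.exp (β / 2 * (spin σ ⬝ᵥ J *ᵥ spin σ)) := by
    rw [← h2]
    exact Finset.sum_le_sum fun σ _ => h1 σ
  have h4 : (0 : ℝ) < (2 : ℝ)⁻¹ ^ N := by positivity
  have h5 : (2 : ℝ)⁻¹ ^ N * (2 ^ N * Real.exp m) = Real.exp m := by
    rw [← mul_assoc, ← mul_pow]
    norm_num
  calc Real.exp m = (2 : ℝ)⁻¹ ^ N * (2 ^ N * Real.exp m) := h5.symm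
    _ ≤ _ := mul_le_mul_of_nonneg_left h3 h4.le

theorem partition_upper {N : ℕ} (U : Matrix (Fin N) (Fin N) ℝ) (lam : Fin N → ℝ)
    (hU : Uᵀ * U = 1) (β : ℝ) (hβ : 0 ≤ β) (M : ℝ) (hM : ∀ i, lam i ≤ M) :
    (2 : ℝ)⁻¹ ^ N * ∑ σ : Fin N → ℤˣ,
        Real.exp (β / 2 * (spin σ ⬝ᵥ (Uᵀ * Matrix.diagonal lam * U) *ᵥ spin σ))
      ≤ Real.exp (β / 2 * (M * N)) := by
  have h1 : ∑ σ : Fin N → ℤˣ,
        Real.exp (β / 2 * (spin σ ⬝ᵥ (Uᵀ * Matrix.diagonal lam * U) *ᵥ spin σ))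
      ≤ ∑ _σ : Fin N → ℤˣ, Real.exp (β / 2 * (M * N)) := by
    refine Finset.sum_le_sum fun σ _ => ?_
    apply Real.exp_le_exp.2
    exact mul_le_mul_of_nonneg_left (quad_le U lam hU M hM σ) (by positivity)
  rw [Finset.sum_const, Finset.card_univ, nsmul_eq_mul, card_config] at h1
  have h4 : (0 : ℝ) < (2 : ℝ)⁻¹ ^ N := by positivity
  have h5 : (2 : ℝ)⁻¹ ^ N * (2 ^ N * Real.exp (β / 2 * (M * N))) = Real.exp (β / 2 * (M * N)) := by
    rw [← mul_assoc, ← mul_pow]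
    norm_num
  calc _ ≤ (2 : ℝ)⁻¹ ^ N * (2 ^ N * Real.exp (β / 2 * (M * N))) :=
        mul_le_mul_of_nonneg_left h1 h4.le
    _ = _ := h5

theorem sandwich (N : ℕ) (U : Matrix (Fin N) (Fin N) ℝ) (lam : Fin N → ℝ) (β : ℝ)
    (hN : 0 < N) (hU : Uᵀ * U = 1) (hβ : 0 ≤ β) :
    β / 2 * ((∑ i, lam i) / N) ≤ pressure N (Uᵀ * Matrix.diagonal lam * U) β ∧
      ∀ M : ℝ, (∀ i, lam i ≤ M) → pressure N (Uᵀ * Matrix.diagonal lam * U) β ≤ β / 2 * M := by
  have hN' : (0 : ℝ) < N := by exact_mod_cast hN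
  have hlow := partition_lower (Uᵀ * Matrix.diagonal lam * U) β
  rw [trace_conj U lam hU] at hlow
  constructor
  · unfold pressure
    have h1 := Real.log_le_log (Real.exp_pos _) hlow
    rw [Real.log_exp] at h1
    have h2 : β / 2 * ((∑ i, lam i) / N) = 1 / (N : ℝ) * (β / 2 * ∑ i, lam i) := by
      field_simp
    rw [h2]
    exact mul_le_mul_of_nonneg_left h1 (by positivity)
  · intro M hM
    unfold pressure
    have hup := partition_upper U lam hU β hβ M hM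
    have hpos : (0 : ℝ) < (2 : ℝ)⁻¹ ^ N * ∑ σ : Fin N → ℤˣ,
        Real.exp (β / 2 * (spin σ ⬝ᵥ (Uᵀ * Matrix.diagonal lam * U) *ᵥ spin σ)) :=
      lt_of_lt_of_le (Real.exp_pos _) hlow
    have h1 := Real.log_le_log hpos hup
    rw [Real.log_exp] at h1
    have h2 : β / 2 * M = 1 / (N : ℝ) * (β / 2 * (M * N)) := by
      field_simp
    rw [h2]
    exact mul_le_mul_of_nonneg_left h1 (by positivity)

theorem limit_degenerate (β c : ℝ) (lam : ∀ N : ℕ, Fin N → ℝ)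
    (U : ∀ N : ℕ, Matrix (Fin N) (Fin N) ℝ) (a b : ℕ → ℝ) (hβ : 0 ≤ β)
    (hU : ∀ N, (U N)ᵀ * U N = 1) (hab : ∀ N i, a N ≤ lam N i ∧ lam N i ≤ b N)
    (ha : Tendsto a atTop (𝓝 c)) (hb : Tendsto b atTop (𝓝 c)) :
    Tendsto (fun N => pressure N ((U N)ᵀ * Matrix.diagonal (lam N) * U N) β) atTop
      (𝓝 (β / 2 * c)) := by
  have ha' : Tendsto (fun N => β / 2 * a N) atTop (𝓝 (β / 2 * c)) := ha.const_mul _
  have hb' : Tendsto (fun N => β / 2 * b N) atTop (𝓝 (β / 2 * c)) := hb.const_mul _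
  refine tendsto_of_tendsto_of_tendsto_of_le_of_le' ha' hb' ?_ ?_
  · filter_upwards [eventually_gt_atTop 0] with N hN
    have hN' : (0 : ℝ) < N := by exact_mod_cast hN
    have h1 := (sandwich N (U N) (lam N) β hN (hU N) hβ).1
    have h2 : a N ≤ (∑ i, lam N i) / N := by
      rw [le_div_iff₀ hN']
      have h3 : ∑ _i : Fin N, a N ≤ ∑ i, lam N i :=
        Finset.sum_le_sum fun i _ => (hab N i).1
      rw [Finset.sum_const, Finset.card_univ, Fintype.card_fin, nsmul_eq_mul] at h3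
      linarith
    have h4 : β / 2 * a N ≤ β / 2 * ((∑ i, lam N i) / N) :=
      mul_le_mul_of_nonneg_left h2 (by positivity)
    linarith
  · filter_upwards [eventually_gt_atTop 0] with N hN
    exact (sandwich N (U N) (lam N) β hN (hU N) hβ).2 (b N) fun i => (hab N i).2

/-- Deterministic bounds for the pressure, valid for every orthogonal matrix, and the limit of
the pressure in the degenerate case where all eigenvalues converge to one number. -/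
theorem result :
    (∀ (N : ℕ) (U : Matrix (Fin N) (Fin N) ℝ) (lam : Fin N → ℝ) (β : ℝ),
      0 < N → Uᵀ * U = 1 → 0 ≤ β →
      β / 2 * ((∑ i, lam i) / N) ≤ pressure N (Uᵀ * Matrix.diagonal lam * U) β ∧
        ∀ M : ℝ, (∀ i, lam i ≤ M) →
          pressure N (Uᵀ * Matrix.diagonal lam * U) β ≤ β / 2 * M) ∧
    (∀ (β c : ℝ) (lam : ∀ N : ℕ, Fin N → ℝ) (U : ∀ N : ℕ, Matrix (Fin N) (Fin N) ℝ)
      (a b : ℕ → ℝ), 0 ≤ β → (∀ N, (U N)ᵀ * U N = 1) →
      (∀ N i, a N ≤ lam N i ∧ lam N i ≤ b N) →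
      Tendsto a atTop (𝓝 c) → Tendsto b atTop (𝓝 c) →
      Tendsto (fun N => pressure N ((U N)ᵀ * Matrix.diagonal (lam N) * U N) β) atTop
        (𝓝 (β / 2 * c))) :=
  ⟨sandwich, limit_degenerate⟩

end Vale.Agent.Results.P166.DeterministicSandwich
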